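import Vale.Agent.Lib.P345.ExactFold

/-!
A Diophantine representation in which every member of the set has exactly `c` witness tuples
(`c ≥ 1` fixed) can be converted into a single-fold representation.
-/

namespace Vale.Agent.Results.P345.ConstantFold

open MvPolynomial Vale.Agent.Lib.P345

/-- If `P` is a Diophantine representation of `S ⊆ ℕ^n` such that for every `a ∈ S` the equation
`P(a, w) = 0` has exactly `c` solutions `w ∈ ℕ^m`, where `c ≥ 1` does not depend on `a`, then `S`
has a single-fold Diophantine representation. -/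
theorem result {n m : ℕ} (c : ℕ) (hc : 1 ≤ c) (S : Set (Fin n → ℕ))
    (P : MvPolynomial (Fin n ⊕ Fin m) ℤ) (hrep : IsRep S P)
    (hfold : ∀ a ∈ S, {w : Fin m → ℕ | evalAt P a w = 0}.ncard = c) :
    HasSingleFoldRep S := by
  obtain ⟨c', rfl⟩ : ∃ c', c = c' + 1 := ⟨c - 1, by omega⟩
  exact hasSingleFoldRep_of_exact S P hrep hfold

end Vale.Agent.Results.P345.ConstantFold
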