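import Vale.Agent.Lib.P345.Basic

/-!
Single-fold Diophantine sets of natural numbers are exactly the sets of non-negative values of
integer polynomials which take every non-negative value at most once.
-/

namespace Vale.Agent.Results.P345.InjectiveValues

open MvPolynomial Vale.Agent.Lib.P345

/-- A set `S` of natural numbers has a single-fold Diophantine representation if and only if
there is an integer polynomial `Q` in finitely many variables such that `S` is the set of
non-negative values of `Q` at natural arguments and every non-negative value of `Q` is taken at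
exactly one point of `ℕ^m`. -/
theorem result (S : Set ℕ) :
    HasSingleFoldRep {a : Fin 1 → ℕ | a 0 ∈ S} ↔
      ∃ (m : ℕ) (Q : MvPolynomial (Fin m) ℤ),
        (∀ s : ℕ, s ∈ S ↔ ∃ x : Fin m → ℕ, eval (fun i => (x i : ℤ)) Q = (s : ℤ)) ∧
        (∀ x y : Fin m → ℕ, 0 ≤ eval (fun i => (x i : ℤ)) Q →
          eval (fun i => (x i : ℤ)) Q = eval (fun i => (y i : ℤ)) Q → x = y) := by
  constructor
  · rintro ⟨m, P, hrep, hsf⟩
    let e : Fin 1 ⊕ Fin m ≃ Fin (1 + m) := finSumFinEquiv
    let Q₀ : MvPolynomial (Fin 1 ⊕ Fin m) ℤ := (X (Sum.inl 0) + 1) * (1 - P ^ 2) - 1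
    let Q : MvPolynomial (Fin (1 + m)) ℤ := rename e Q₀
    have hQ : ∀ x : Fin (1 + m) → ℕ, eval (fun i => (x i : ℤ)) Q =
        ((x (e (Sum.inl 0)) : ℤ) + 1) *
          (1 - (evalAt P (fun i => x (e (Sum.inl i))) (fun j => x (e (Sum.inr j)))) ^ 2) - 1 := by
      intro x
      simp only [Q, Q₀, eval_rename, map_sub, map_mul, map_add, map_one, map_pow, eval_X,
        Function.comp_apply, evalAt]
      congr 6
      funext i
      rcases i with i | i <;> simp
    -- sign analysis
    have hsign : ∀ x : Fin (1 + m) → ℕ, 0 ≤ eval (fun i => (x i : ℤ)) Q →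
        evalAt P (fun i => x (e (Sum.inl i))) (fun j => x (e (Sum.inr j))) = 0 := by
      intro x hx
      rw [hQ] at hx
      by_contra hne
      have h1 : 1 ≤ (evalAt P (fun i => x (e (Sum.inl i))) (fun j => x (e (Sum.inr j)))) ^ 2 := by
        have := sq_pos_of_ne_zero hne
        omega
      have h2 : (0 : ℤ) ≤ (x (e (Sum.inl 0)) : ℤ) := Int.natCast_nonneg _
      nlinarith
    refine ⟨1 + m, Q, ?_, ?_⟩
    · intro s
      constructor
      · intro hs
        have hs' : (fun _ : Fin 1 => s) ∈ {a : Fin 1 → ℕ | a 0 ∈ S} := hs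
        obtain ⟨w, hw⟩ := (hrep _).mp hs'
        refine ⟨fun i => Sum.elim (fun _ => s) w (e.symm i), ?_⟩
        rw [hQ]
        simp only [Equiv.symm_apply_apply, Sum.elim_inl, Sum.elim_inr]
        rw [hw]
        ring
      · rintro ⟨x, hx⟩
        have h0 := hsign x (by rw [hx]; exact Int.natCast_nonneg _)
        have h1 := hQ x
        rw [h0, hx] at h1
        have h2 : s = x (e (Sum.inl 0)) := by
          have : (s : ℤ) = (x (e (Sum.inl 0)) : ℤ) := by rw [h1]; ring
          exact_mod_cast this
        have h3 : (fun i => x (e (Sum.inl i))) ∈ {a : Fin 1 → ℕ | a 0 ∈ S} := (hrep _).mpr ⟨_, h0⟩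
        rw [h2]
        exact h3
    · intro x y hx hxy
      have h0 := hsign x hx
      have h0' := hsign y (hxy ▸ hx)
      have h1 := hQ x
      have h1' := hQ y
      rw [h0] at h1
      rw [h0'] at h1'
      have h2 : x (e (Sum.inl 0)) = y (e (Sum.inl 0)) := by
        have : (x (e (Sum.inl 0)) : ℤ) = (y (e (Sum.inl 0)) : ℤ) := by
          have h3 : eval (fun i => (x i : ℤ)) Q = (x (e (Sum.inl 0)) : ℤ) := by rw [h1]; ring
          have h3' : eval (fun i => (y i : ℤ)) Q = (y (e (Sum.inl 0)) : ℤ) := by rw [h1']; ring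
          rw [← h3, ← h3', hxy]
        exact_mod_cast this
      have ha : (fun i : Fin 1 => x (e (Sum.inl i))) = fun i => y (e (Sum.inl i)) := by
        funext i
        have : i = 0 := Subsingleton.elim _ _
        rw [this, h2]
      rw [ha] at h0
      have hw := hsf _ _ _ h0 h0'
      funext i
      obtain ⟨q, rfl⟩ := e.surjective i
      rcases q with q | q
      · exact congrFun ha q
      · exact congrFun hw q
  · rintro ⟨m, Q, hval, hinj⟩
    let P : MvPolynomial (Fin 1 ⊕ Fin m) ℤ := rename Sum.inr Q - X (Sum.inl 0)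
    have hP : ∀ (a : Fin 1 → ℕ) (w : Fin m → ℕ),
        evalAt P a w = eval (fun i => (w i : ℤ)) Q - (a 0 : ℤ) := by
      intro a w
      simp only [P, evalAt, map_sub, eval_rename, eval_X, Sum.elim_inl]
      rfl
    refine ⟨m, P, ?_, ?_⟩
    · intro a
      change a 0 ∈ S ↔ _
      rw [hval]
      apply exists_congr
      intro w
      rw [hP, sub_eq_zero]
    · intro a w w' hw hw'
      rw [hP, sub_eq_zero] at hw hw'
      apply hinj
      · rw [hw]; exact Int.natCast_nonneg _
      · rw [hw, hw']

end Vale.Agent.Results.P345.InjectiveValues
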